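import Crest.Agent.R56.Main

set_option autoImplicit false
set_option linter.unusedSectionVars false

namespace Crest.Agent.R56

open Finset Crest.Agent.Lib.BiasedCube

variable {n : ℕ} {ι : Type*} [Fintype ι] [DecidableEq ι]
variable {vs : ι → Finset (Fin n)} {r : ℕ} {f : (ι → Bool) → ℝ}

lemma poincare (hb : ∀ x, f x = 0 ∨ f x = 1) {p : ℝ} (h0 : 0 < p) (h1 : p < 1) :
    ex p f * (1 - ex p f) ≤ sg p ^ 2 * ∑ e, infl p f e := by
  rw [var_eq h0 h1 hb]
  refine le_trans ?_ (sum_card_mul_coef_sq_le h0 h1 hb)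
  rw [Finset.sum_filter]
  refine Finset.sum_le_sum fun S _ => ?_
  split_ifs with hS
  · have : (1 : ℝ) ≤ S.card := by
      exact_mod_cast Finset.card_pos.2 (Finset.nonempty_iff_ne_empty.2 hS)
    nlinarith [sq_nonneg (coef p f S)]
  · positivity

lemma var_le_of_param (H : SymData vs r f) {p : ℝ} (h0 : 0 < p) (h1 : p < 1)
    (hr : 2 ≤ r) (t : ℕ) (ht : 1 ≤ t) (hB : Bc p ^ (4 * t ^ (r - 1)) ≤ n) :
    ex p f * (1 - ex p f) ≤ 4 * sg p * r * (∑ e, infl p f e) / (t : ℝ) ^ r := by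
  have hs := sg_pos h0 h1
  have hs1 := sg_le_half h0 h1
  have hB16 := Bc_ge h0 h1
  set d := t ^ (r - 1) with hd
  set I := ∑ e, infl p f e with hIdef
  have hI : 0 ≤ I := Finset.sum_nonneg fun e _ => infl_nonneg h0.le h1.le _ _
  set M : ℝ := (t : ℝ) ^ r with hM
  have ht' : (1 : ℝ) ≤ t := by exact_mod_cast ht
  have hM1 : 1 ≤ M := one_le_pow₀ ht'
  have hM0 : 0 < M := by linarith
  have hBd : 0 < Bc p ^ d := pow_pos (by linarith) d
  have hnpos : (0 : ℝ) < n := lt_of_lt_of_le (pow_pos (by linarith) _) hB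
  have hn : 0 < n := by exact_mod_cast hnpos
  have hr' : (0 : ℝ) < r := by exact_mod_cast (by omega : 0 < r)
  have hlow := low_weight H h0 h1 hn hr t (θ := 1 / (2 * M)) (by positivity)
    (by rw [div_le_one (by positivity)]; linarith) (by rw [← hM]; field_simp; rfl)
  rw [← hd, ← hIdef] at hlow
  set WL := ∑ S ∈ Finset.univ.filter (fun S : Finset ι => S ≠ ∅ ∧ r * S.card ≤ t ^ r),
      coef p f S ^ 2 with hWL
  -- arithmetic: `M ^ 3 * B ^ (2 d) ≤ n`
  have hMd : M ≤ (d : ℝ) ^ 2 := by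
    rw [hM, hd]
    push_cast
    rw [← pow_mul]
    exact pow_le_pow_right₀ ht' (by omega)
  have hd3 : (d : ℝ) ^ 3 ≤ Bc p ^ d := by
    have a1 : (d : ℝ) ≤ 2 ^ d := by exact_mod_cast (Nat.lt_two_pow_self (n := d)).le
    calc (d : ℝ) ^ 3 ≤ (2 ^ d) ^ 3 := pow_le_pow_left₀ (Nat.cast_nonneg _) a1 3
      _ = 8 ^ d := by rw [← pow_mul, mul_comm, pow_mul]; norm_num
      _ ≤ Bc p ^ d := pow_le_pow_left₀ (by norm_num) (by linarith) d
  have hkey : M ^ 3 * (Bc p ^ d) ^ 2 ≤ n := by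
    calc M ^ 3 * (Bc p ^ d) ^ 2 ≤ ((d : ℝ) ^ 2) ^ 3 * (Bc p ^ d) ^ 2 := by gcongr
      _ = ((d : ℝ) ^ 3) ^ 2 * (Bc p ^ d) ^ 2 := by ring
      _ ≤ (Bc p ^ d) ^ 2 * (Bc p ^ d) ^ 2 := by gcongr
      _ = Bc p ^ (4 * d) := by ring
      _ ≤ n := hB
  have hsq : √(1 / (2 * M) * n) ≤ 3 * n / (4 * M ^ 2 * Bc p ^ d) := by
    apply Real.sqrt_le_iff.2
    refine ⟨by positivity, ?_⟩
    rw [div_pow, le_div_iff₀ (by positivity)]
    have : 1 / (2 * M) * n * (4 * M ^ 2 * Bc p ^ d) ^ 2 = 8 * n * (M ^ 3 * (Bc p ^ d) ^ 2) := by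
      field_simp; ring
    rw [this]
    nlinarith
  have hWL' : WL ≤ 3 * sg p * r * I / M := by
    have a1 : 1 / (2 * M) / 2 * WL ≤ sg p * Bc p ^ d * (r * I / n) *
        (3 * n / (4 * M ^ 2 * Bc p ^ d)) :=
      hlow.trans (mul_le_mul_of_nonneg_left hsq (by positivity))
    have a2 : sg p * Bc p ^ d * (r * I / n) * (3 * n / (4 * M ^ 2 * Bc p ^ d))
        = 1 / (2 * M) / 2 * (3 * sg p * r * I / M) := by
      field_simp; ring
    rw [a2] at a1
    exact le_of_mul_le_mul_left a1 (by positivity)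
  have hWH : ∑ S ∈ Finset.univ.filter (fun S : Finset ι => ¬ r * S.card ≤ t ^ r),
      coef p f S ^ 2 ≤ sg p * r * I / M := by
    have a1 := sum_card_mul_coef_sq_le h0 h1 H.bool
    rw [← hIdef] at a1
    rw [le_div_iff₀ hM0, Finset.sum_mul]
    calc ∑ S ∈ Finset.univ.filter (fun S : Finset ι => ¬ r * S.card ≤ t ^ r), coef p f S ^ 2 * M
        ≤ ∑ S ∈ Finset.univ.filter (fun S : Finset ι => ¬ r * S.card ≤ t ^ r),
          r * ((S.card : ℝ) * coef p f S ^ 2) := by
          refine Finset.sum_le_sum fun S hS => ?_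
          have := (Finset.mem_filter.1 hS).2
          have h2 : M ≤ (r : ℝ) * S.card := by
            rw [hM]; exact_mod_cast (not_le.1 this).le
          nlinarith [sq_nonneg (coef p f S)]
      _ ≤ ∑ S : Finset ι, r * ((S.card : ℝ) * coef p f S ^ 2) :=
          Finset.sum_le_sum_of_subset_of_nonneg (Finset.subset_univ _) fun _ _ _ => by positivity
      _ = r * ∑ S : Finset ι, (S.card : ℝ) * coef p f S ^ 2 := by rw [Finset.mul_sum]
      _ ≤ r * (sg p ^ 2 * I) := mul_le_mul_of_nonneg_left a1 hr'.le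
      _ ≤ sg p * r * I := by
          have : sg p ^ 2 * I ≤ sg p * I := mul_le_mul_of_nonneg_right (by nlinarith) hI
          nlinarith
  rw [var_eq h0 h1 H.bool]
  have hsplit : ∑ S ∈ Finset.univ.filter (fun S : Finset ι => S ≠ ∅), coef p f S ^ 2
      ≤ WL + ∑ S ∈ Finset.univ.filter (fun S : Finset ι => ¬ r * S.card ≤ t ^ r),
        coef p f S ^ 2 := by
    rw [hWL]
    simp only [Finset.sum_filter]
    rw [← Finset.sum_add_distrib]
    refine Finset.sum_le_sum fun S _ => ?_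
    by_cases a : S ≠ ∅ <;> by_cases b : r * S.card ≤ t ^ r <;> simp [a, b, sq_nonneg]
  calc _ ≤ 3 * sg p * r * I / M + sg p * r * I / M := by linarith
    _ = _ := by ring

lemma sg_mul_log_sq_le {p : ℝ} (h0 : 0 < p) (h1 : p < 1) :
    sg p * (4 * Real.log (Bc p)) ^ 2 ≤ 512 := by
  have hs := sg_pos h0 h1
  have e : Bc p = (2 / sg p) ^ 2 := by
    rw [div_pow, sg_sq h0 h1]; unfold Bc; norm_num
  set w := 2 / sg p with hw
  have hw0 : 0 < w := by positivity
  have hw1 : 1 ≤ w := by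
    rw [hw, le_div_iff₀ hs]; linarith [sg_le_half h0 h1]
  have a1 : Real.log w ≤ 2 * √w := by
    have : Real.log w = 2 * Real.log √w := by
      rw [Real.log_sqrt hw0.le]; ring
    rw [this]
    have := Real.log_le_sub_one_of_pos (Real.sqrt_pos.2 hw0)
    linarith
  have a2 : 0 ≤ Real.log w := Real.log_nonneg hw1
  have a3 : Real.log w ^ 2 ≤ 4 * w := by
    calc Real.log w ^ 2 ≤ (2 * √w) ^ 2 := pow_le_pow_left₀ a2 a1 2
      _ = 4 * w := by rw [mul_pow, Real.sq_sqrt hw0.le]; norm_num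
  rw [e, Real.log_pow]
  have a4 : sg p * w = 2 := by rw [hw]; field_simp
  push_cast
  nlinarith

theorem var_le (H : SymData vs r f) {p : ℝ} (h0 : 0 < p) (h1 : p < 1)
    (hr : 2 ≤ r) (hn : 2 ≤ n) :
    ex p f * (1 - ex p f)
      ≤ 2048 * r * 2 ^ r / Real.log n ^ ((r : ℝ) / ((r : ℝ) - 1)) * ∑ e, infl p f e := by
  have hs := sg_pos h0 h1
  have hs1 := sg_le_half h0 h1
  have hB16 := Bc_ge h0 h1
  set I := ∑ e, infl p f e with hIdef
  have hI : 0 ≤ I := Finset.sum_nonneg fun e _ => infl_nonneg h0.le h1.le _ _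
  have hn' : (2 : ℝ) ≤ n := by exact_mod_cast hn
  have hr' : (2 : ℝ) ≤ r := by exact_mod_cast hr
  have hL : 0 < Real.log n := Real.log_pos (by linarith)
  have hlB : 1 ≤ Real.log (Bc p) := by
    rw [Real.le_log_iff_exp_le (by linarith)]
    linarith [Real.exp_one_lt_d9]
  set c := 4 * Real.log (Bc p) with hc
  have hc1 : 1 ≤ c := by linarith
  set y := Real.log n / c with hy
  have hy0 : 0 < y := by positivity
  set x := y ^ (1 / ((r : ℝ) - 1)) with hx
  have hx0 : 0 < x := Real.rpow_pos_of_pos hy0 _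
  have hr1 : (0 : ℝ) < (r : ℝ) - 1 := by linarith
  have hxr1 : x ^ (r - 1) = y := by
    rw [hx, ← Real.rpow_natCast, ← Real.rpow_mul hy0.le, Nat.cast_sub (by omega), Nat.cast_one,
      one_div_mul_cancel hr1.ne', Real.rpow_one]
  set s : ℝ := (r : ℝ) / ((r : ℝ) - 1) with hsdef
  have hxr : x ^ r = Real.log n ^ s / c ^ s := by
    rw [hx, ← Real.rpow_natCast, ← Real.rpow_mul hy0.le, ← Real.div_rpow hL.le (by linarith)]
    congr 1
    rw [hsdef]; ring
  have hs2 : s ≤ 2 := by rw [hsdef, div_le_iff₀ hr1]; linarith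
  have main : ex p f * (1 - ex p f) ≤ 4 * sg p * r * 2 ^ r * I / x ^ r := by
    set t := ⌊x⌋₊ with ht
    rcases Nat.eq_zero_or_pos t with h | h
    · have hx1 : x < 1 := Nat.floor_eq_zero.1 h
      have a1 : x ^ r ≤ 1 := pow_le_one₀ hx0.le hx1.le
      refine (poincare H.bool h0 h1).trans ?_
      rw [← hIdef, le_div_iff₀ (by positivity)]
      have a2 : (1 : ℝ) ≤ 2 ^ r := one_le_pow₀ (by norm_num)
      have a3 : sg p ^ 2 * I * x ^ r ≤ sg p ^ 2 * I * 1 :=
        mul_le_mul_of_nonneg_left a1 (by positivity)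
      have a4 : sg p ≤ 4 * r * 2 ^ r := by nlinarith
      have a5 : sg p * (sg p * I) ≤ (4 * r * 2 ^ r) * (sg p * I) :=
        mul_le_mul_of_nonneg_right a4 (by positivity)
      nlinarith
    · have htx : (t : ℝ) ≤ x := Nat.floor_le hx0.le
      have hxt : x ≤ 2 * t := by
        have := Nat.lt_floor_add_one x
        have h' : (1 : ℝ) ≤ t := by exact_mod_cast h
        linarith
      have hB : Bc p ^ (4 * t ^ (r - 1)) ≤ n := by
        rw [← Real.log_le_log_iff (by positivity) (by linarith), Real.log_pow]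
        have a1 : (t : ℝ) ^ (r - 1) ≤ y := by
          rw [← hxr1]; exact pow_le_pow_left₀ (Nat.cast_nonneg _) htx _
        rw [hy, le_div_iff₀ (by linarith)] at a1
        push_cast
        rw [hc] at a1
        linarith
      refine (var_le_of_param H h0 h1 hr t h hB).trans ?_
      have ht0 : (0 : ℝ) < t := by exact_mod_cast h
      rw [← hIdef, div_le_div_iff₀ (by positivity) (by positivity)]
      have a2 : x ^ r ≤ 2 ^ r * (t : ℝ) ^ r := by
        rw [← mul_pow]; exact pow_le_pow_left₀ hx0.le hxt _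
      calc 4 * sg p * r * I * x ^ r ≤ 4 * sg p * r * I * (2 ^ r * (t : ℝ) ^ r) :=
            mul_le_mul_of_nonneg_left a2 (by positivity)
        _ = _ := by ring
  refine main.trans ?_
  have hLs : 0 < Real.log n ^ s := Real.rpow_pos_of_pos hL _
  have hcs : 0 < c ^ s := Real.rpow_pos_of_pos (by linarith) _
  have a1 : c ^ s ≤ c ^ 2 := by
    rw [← Real.rpow_two]
    exact Real.rpow_le_rpow_of_exponent_le hc1 hs2
  have a2 : sg p * c ^ s ≤ 512 :=
    (mul_le_mul_of_nonneg_left a1 hs.le).trans (sg_mul_log_sq_le h0 h1)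
  rw [hxr]
  have e : 4 * sg p * r * 2 ^ r * I / (Real.log n ^ s / c ^ s)
      = (sg p * c ^ s) * (4 * r * 2 ^ r / Real.log n ^ s * I) := by
    field_simp
  rw [e]
  calc _ ≤ 512 * (4 * r * 2 ^ r / Real.log n ^ s * I) :=
        mul_le_mul_of_nonneg_right a2 (by positivity)
    _ = _ := by ring

end Crest.Agent.R56
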