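import Crest.Agent.Lib.BiasedCube.Hyper

/-!
Variance versus total influence for Boolean functions of an `r`-uniform hypergraph that are
invariant under transpositions of vertices.
-/

set_option autoImplicit false
set_option linter.unusedSectionVars false

namespace Crest.Agent.R56

open Finset Crest.Agent.Lib.BiasedCube

variable {n : ℕ} {ι : Type*} [Fintype ι] [DecidableEq ι]

/-- Coordinates are distinct `r`-sets of vertices and `f` is a 0-1 function invariant under
transpositions of vertices. -/
structure SymData (vs : ι → Finset (Fin n)) (r : ℕ) (f : (ι → Bool) → ℝ) : Prop where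
  card : ∀ e, (vs e).card = r
  inj : Function.Injective vs
  bool : ∀ x, f x = 0 ∨ f x = 1
  sym : ∀ u v : Fin n, ∃ τ : Equiv.Perm ι,
    (∀ e, vs (τ e) = (vs e).map (Equiv.swap u v).toEmbedding) ∧ ∀ x, f (x ∘ τ) = f x

/-- Slots missing `U`. -/
def Zs (vs : ι → Finset (Fin n)) (U : Finset (Fin n)) : Finset ι :=
  Finset.univ.filter (fun e => Disjoint (vs e) U)

/-- Slots meeting `U` exactly in `u`. -/
def As (vs : ι → Finset (Fin n)) (U : Finset (Fin n)) (u : Fin n) : Finset ι :=
  Finset.univ.filter (fun e => vs e ∩ U = {u})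

lemma mem_Zs {vs : ι → Finset (Fin n)} {U : Finset (Fin n)} {e : ι} :
    e ∈ Zs vs U ↔ Disjoint (vs e) U := by simp [Zs]

lemma mem_As {vs : ι → Finset (Fin n)} {U : Finset (Fin n)} {u : Fin n} {e : ι} :
    e ∈ As vs U u ↔ vs e ∩ U = {u} := by simp [As]

variable {vs : ι → Finset (Fin n)} {r : ℕ} {f : (ι → Bool) → ℝ}

lemma block_small (H : SymData vs r f) {p : ℝ} (h0 : 0 < p) (h1 : p < 1)
    (U : Finset (Fin n)) {u : Fin n} (hu : u ∈ U) (z : ι → Bool) :
    ∑ T ∈ Finset.univ.filter (fun T : Finset ι => T ⊆ As vs U u ∧ T ≠ ∅),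
      coef p (restr (Zs vs U) f z) T ^ 2 ≤ 1 / (U.card : ℝ) := by
  set h := restr (Zs vs U) f z with hh
  set a : Fin n → ℝ := fun w => ∑ T ∈ Finset.univ.filter
    (fun T : Finset ι => T ⊆ As vs U w ∧ T ≠ ∅), coef p h T ^ 2 with ha
  have hle : ∀ v ∈ U, a u ≤ a v := by
    intro v hv
    obtain ⟨τ, hτ, hf⟩ := H.sym u v
    have hfix : ∀ e ∈ Zs vs U, τ e = e := by
      intro e he
      apply H.inj
      rw [hτ]
      have hd := mem_Zs.1 he
      ext w
      simp only [Finset.mem_map_equiv, Equiv.symm_swap]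
      by_cases hw : w ∈ U
      · have h1 : w ∉ vs e := fun h => Finset.disjoint_left.1 hd h hw
        have h2 : Equiv.swap u v w ∉ vs e := by
          intro h
          apply Finset.disjoint_left.1 hd h
          rw [Equiv.swap_apply_def]
          split_ifs <;> assumption
        simp [h1, h2]
      · have : w ≠ u := fun e => hw (e ▸ hu)
        have : w ≠ v := fun e => hw (e ▸ hv)
        rw [Equiv.swap_apply_of_ne_of_ne] <;> assumption
    have hfix' : ∀ e, τ e ∈ Zs vs U → e ∈ Zs vs U := by
      intro e he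
      have := τ.injective (hfix _ he)
      rwa [this] at he
    have hsym : ∀ x, h (x ∘ τ) = h x := by
      intro x
      rw [hh]
      unfold restr
      rw [← hf ((Zs vs U).piecewise z x)]
      congr 1
      funext e
      by_cases he : e ∈ Zs vs U
      · simp [Finset.piecewise, he, hfix e he]
      · have : τ e ∉ Zs vs U := fun h => he (hfix' e h)
        simp [Finset.piecewise, he, this]
    have hA : ∀ e ∈ As vs U u, τ e ∈ As vs U v := by
      intro e he
      rw [mem_As] at he ⊢
      rw [hτ]
      ext w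
      simp only [Finset.mem_inter, Finset.mem_map_equiv, Equiv.symm_swap, Finset.mem_singleton]
      have key : ∀ y, (y ∈ vs e ∧ y ∈ U) ↔ y = u := fun y => by
        rw [← Finset.mem_inter, he, Finset.mem_singleton]
      have hU : w ∈ U ↔ Equiv.swap u v w ∈ U := by
        rw [Equiv.swap_apply_def]
        split_ifs with h1 h2
        · subst h1; simp [hu, hv]
        · subst h2; simp [hu, hv]
        · rfl
      rw [hU, key, Equiv.swap_apply_eq_iff, Equiv.swap_apply_left]
    calc a u = ∑ T ∈ Finset.univ.filter (fun T : Finset ι => T ⊆ As vs U u ∧ T ≠ ∅),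
          coef p h (T.map τ.toEmbedding) ^ 2 :=
          Finset.sum_congr rfl fun T _ => by rw [coef_perm p τ h hsym]
      _ = ∑ T ∈ (Finset.univ.filter (fun T : Finset ι => T ⊆ As vs U u ∧ T ≠ ∅)).image
          (fun T => T.map τ.toEmbedding), coef p h T ^ 2 := by
          rw [Finset.sum_image]
          intro S _ T _ hST
          exact Finset.map_injective _ hST
      _ ≤ a v := by
          refine Finset.sum_le_sum_of_subset_of_nonneg ?_ fun _ _ _ => sq_nonneg _
          intro T hT
          obtain ⟨T', hT', rfl⟩ := Finset.mem_image.1 hT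
          have hT'' := (Finset.mem_filter.1 hT').2
          refine Finset.mem_filter.2 ⟨Finset.mem_univ _, ?_, ?_⟩
          · intro e he
            obtain ⟨e', he', rfl⟩ := Finset.mem_map.1 he
            exact hA e' (hT''.1 he')
          · simpa using hT''.2
  have htot : ∑ v ∈ U, a v ≤ 1 := by
    have hp := parseval h0 h1 h
    have hb : ex p (fun x => h x ^ 2) ≤ 1 := by
      rw [← ex_const (ι := ι) p 1]
      refine ex_mono h0.le h1.le fun x => ?_
      rw [hh]; unfold restr
      rcases H.bool ((Zs vs U).piecewise z x) with h | h <;> simp [h]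
    refine le_trans ?_ (hp ▸ hb)
    simp only [ha, Finset.sum_filter]
    rw [Finset.sum_comm]
    refine Finset.sum_le_sum fun T _ => ?_
    rw [← Finset.sum_filter, Finset.sum_const, nsmul_eq_mul]
    have : ((U.filter (fun w => T ⊆ As vs U w ∧ T ≠ ∅)).card : ℝ) ≤ 1 := by
      norm_cast
      rw [Finset.card_le_one]
      intro v hv w hw
      have hv' := (Finset.mem_filter.1 hv).2
      have hw' := (Finset.mem_filter.1 hw).2
      obtain ⟨e, he⟩ := Finset.nonempty_iff_ne_empty.2 hv'.2
      have e1 := mem_As.1 (hv'.1 he)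
      have e2 := mem_As.1 (hw'.1 he)
      rw [e1] at e2
      exact Finset.singleton_injective e2
    nlinarith [sq_nonneg (coef p h T)]
  have hc : (0 : ℝ) < U.card := by exact_mod_cast Finset.card_pos.2 ⟨u, hu⟩
  rw [le_div_iff₀ hc]
  have : (U.card : ℝ) * a u ≤ ∑ v ∈ U, a v := by
    rw [← nsmul_eq_mul]
    exact Finset.card_nsmul_le_sum U a _ hle
  change a u * _ ≤ 1
  linarith

lemma vertex_infl (H : SymData vs r f) {p : ℝ} (h0 : 0 < p) (h1 : p < 1) (u : Fin n) :
    (n : ℝ) * ∑ e ∈ Finset.univ.filter (fun e => u ∈ vs e), infl p f e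
      ≤ r * ∑ e, infl p f e := by
  set b : Fin n → ℝ := fun w => ∑ e ∈ Finset.univ.filter (fun e => w ∈ vs e), infl p f e with hb
  have hle : ∀ v ∈ (Finset.univ : Finset (Fin n)), b u ≤ b v := by
    intro v _
    obtain ⟨τ, hτ, hf⟩ := H.sym u v
    calc b u = ∑ e ∈ Finset.univ.filter (fun e => u ∈ vs e), infl p f (τ e) :=
          Finset.sum_congr rfl fun e _ => by rw [infl_perm p τ f hf]
      _ = ∑ e ∈ (Finset.univ.filter (fun e => u ∈ vs e)).image τ, infl p f e := by
          rw [Finset.sum_image]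
          intro S _ T _ hST
          exact τ.injective hST
      _ ≤ b v := by
          refine Finset.sum_le_sum_of_subset_of_nonneg ?_
            fun _ _ _ => infl_nonneg h0.le h1.le _ _
          intro e he
          obtain ⟨e', he', rfl⟩ := Finset.mem_image.1 he
          refine Finset.mem_filter.2 ⟨Finset.mem_univ _, ?_⟩
          rw [hτ]
          simpa using (Finset.mem_filter.1 he').2
  have h2 := Finset.card_nsmul_le_sum Finset.univ b _ hle
  rw [Finset.card_univ, Fintype.card_fin, nsmul_eq_mul] at h2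
  refine h2.trans (le_of_eq ?_)
  simp only [hb, Finset.sum_filter]
  rw [Finset.sum_comm, Finset.mul_sum]
  refine Finset.sum_congr rfl fun e _ => ?_
  rw [Finset.sum_ite_mem, Finset.univ_inter, Finset.sum_const, nsmul_eq_mul, H.card]

/-- The low-degree nonempty subsets of the block of `u`. -/
def Ts (vs : ι → Finset (Fin n)) (U : Finset (Fin n)) (d : ℕ) (u : Fin n) : Finset (Finset ι) :=
  Finset.univ.filter (fun T : Finset ι => T ⊆ As vs U u ∧ T ≠ ∅ ∧ T.card ≤ d)

lemma per_set (H : SymData vs r f) {p : ℝ} (h0 : 0 < p) (h1 : p < 1) (hn : 0 < n) (d : ℕ)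
    (U : Finset (Fin n)) :
    ∑ u ∈ U, ∑ S ∈ Finset.univ.filter (fun S : Finset ι => S \ Zs vs U ∈ Ts vs U d u),
      coef p f S ^ 2 ≤ sg p * Bc p ^ d * (r * (∑ e, infl p f e) / n) * √(U.card : ℝ) := by
  have hs := sg_pos h0 h1
  have hB : 0 < Bc p ^ d := pow_pos (by linarith [Bc_ge h0 h1]) d
  have hn' : (0 : ℝ) < n := by exact_mod_cast hn
  have each : ∀ u ∈ U,
      ∑ S ∈ Finset.univ.filter (fun S : Finset ι => S \ Zs vs U ∈ Ts vs U d u), coef p f S ^ 2
      ≤ sg p * Bc p ^ d * (r * (∑ e, infl p f e) / n) * √(1 / (U.card : ℝ)) := by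
    intro u hu
    refine (sum_coef_sq_sdiff_mem_le h0 h1 _ f _).trans ?_
    have s1 : ex p (fun z => ∑ T ∈ Ts vs U d u, coef p (restr (Zs vs U) f z) T ^ 2)
        ≤ ex p (fun z => sg p * Bc p ^ d * √(1 / (U.card : ℝ)) *
          ∑ e ∈ As vs U u, infl p (restr (Zs vs U) f z) e) :=
      ex_mono h0.le h1.le fun z =>
        block_level_le h0 h1 d (As vs U u) _ _ (block_small H h0 h1 U hu z)
    refine s1.trans ?_
    rw [ex_const_mul, ex_sum]
    have s2 : ∑ e ∈ As vs U u, ex p (fun z => infl p (restr (Zs vs U) f z) e)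
        ≤ r * (∑ e, infl p f e) / n := by
      rw [le_div_iff₀ hn', mul_comm]
      refine le_trans ?_ (vertex_infl H h0 h1 u)
      apply mul_le_mul_of_nonneg_left _ hn'.le
      have hmem : ∀ e ∈ As vs U u, u ∈ vs e ∩ U := fun e he => by
        rw [mem_As.1 he]; exact Finset.mem_singleton_self _
      calc _ = ∑ e ∈ As vs U u, infl p f e := by
            refine Finset.sum_congr rfl fun e he => ex_infl_restr p _ f ?_
            intro hZ
            have := Finset.mem_inter.1 (hmem e he)
            exact Finset.disjoint_left.1 (mem_Zs.1 hZ) this.1 this.2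
        _ ≤ _ := by
            refine Finset.sum_le_sum_of_subset_of_nonneg ?_
              fun _ _ _ => infl_nonneg h0.le h1.le _ _
            intro e he
            exact Finset.mem_filter.2 ⟨Finset.mem_univ _, (Finset.mem_inter.1 (hmem e he)).1⟩
    calc _ ≤ sg p * Bc p ^ d * √(1 / (U.card : ℝ)) * (r * (∑ e, infl p f e) / n) :=
          mul_le_mul_of_nonneg_left s2 (by positivity)
      _ = _ := by ring
  refine (Finset.sum_le_sum each).trans (le_of_eq ?_)
  rw [Finset.sum_const, nsmul_eq_mul]
  have : (U.card : ℝ) * √(1 / (U.card : ℝ)) = √(U.card : ℝ) := by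
    rcases Nat.eq_zero_or_pos U.card with h | h
    · simp [h]
    · have hc : (0 : ℝ) < U.card := by exact_mod_cast h
      rw [Real.sqrt_div zero_le_one, Real.sqrt_one, mul_one_div, Real.div_sqrt]
  rw [← this]; ring

lemma low_vertex (H : SymData vs r f) (hr : 2 ≤ r) (t : ℕ) (S : Finset ι) (hS : S ≠ ∅)
    (hcard : r * S.card ≤ t ^ r) :
    ∃ v ∈ S.biUnion vs, (S.filter (fun e => v ∈ vs e)).card ≤ t ^ (r - 1) := by
  by_contra hcon
  push Not at hcon
  set V := S.biUnion vs with hV
  obtain ⟨e0, he0⟩ := Finset.nonempty_iff_ne_empty.2 hS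
  obtain ⟨v0, hv0⟩ : (vs e0).Nonempty := by
    rw [← Finset.card_pos, H.card]; omega
  have hv0V : v0 ∈ V := Finset.mem_biUnion.2 ⟨e0, he0, hv0⟩
  have hdeg : (S.filter (fun e => v0 ∈ vs e)).card ≤ V.card ^ (r - 1) := by
    refine le_trans ?_ (Nat.choose_le_pow V.card (r - 1))
    rw [← Finset.card_powersetCard]
    apply Finset.card_le_card_of_injOn (fun e => (vs e).erase v0)
    · intro e he
      have he' := Finset.mem_filter.1 he
      simp only [Finset.mem_coe, Finset.mem_powersetCard]
      refine ⟨(Finset.erase_subset _ _).trans ?_, ?_⟩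
      · exact Finset.subset_biUnion_of_mem vs he'.1
      · rw [Finset.card_erase_of_mem he'.2, H.card]
    · intro e he e' he' hee
      have a1 := (Finset.mem_filter.1 he).2
      have a2 := (Finset.mem_filter.1 he').2
      apply H.inj
      have hee' : (vs e).erase v0 = (vs e').erase v0 := hee
      rw [← Finset.insert_erase a1, ← Finset.insert_erase a2, hee']
  have htk : t < V.card := lt_of_pow_lt_pow_left₀ (r - 1) (Nat.zero_le _)
    ((hcon v0 hv0V).trans_le hdeg)
  have hsum : ∑ v ∈ V, (S.filter (fun e => v ∈ vs e)).card = r * S.card := by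
    simp only [Finset.card_filter]
    rw [Finset.sum_comm]
    rw [mul_comm, ← smul_eq_mul, ← Finset.sum_const]
    refine Finset.sum_congr rfl fun e he => ?_
    rw [← Finset.card_filter, ← H.card e]
    congr 1
    ext v
    simp only [Finset.mem_filter, and_iff_right_iff_imp]
    exact fun hv => Finset.mem_biUnion.2 ⟨e, he, hv⟩
  have hlow : V.card * (t ^ (r - 1) + 1) ≤ r * S.card := by
    rw [← hsum, ← smul_eq_mul]
    exact Finset.card_nsmul_le_sum V _ _ fun v hv => hcon v hv
  have : t ^ r = t * t ^ (r - 1) := by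
    rw [← pow_succ']; congr 1; omega
  nlinarith [Nat.zero_le (t ^ (r - 1))]

/-- The random vertex set. -/
def Us (y : Fin n → Bool) : Finset (Fin n) := Finset.univ.filter (fun i => y i = true)

lemma prob_isolated {θ : ℝ} (h0 : 0 ≤ θ) (h1 : θ ≤ 1) (V : Finset (Fin n)) {v : Fin n}
    (hv : v ∈ V) :
    θ * (1 - V.card * θ) ≤ ex θ (fun y : Fin n → Bool => if V ∩ Us y = {v} then 1 else 0) := by
  set g : Fin n → Bool → ℝ := fun i b =>
    if i = v then (if b then 1 else 0) else if i ∈ V then (if b then 0 else 1) else 1 with hg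
  have hp := ex_prod θ g
  have hle : ex θ (fun y : Fin n → Bool => ∏ i, g i (y i))
      ≤ ex θ (fun y : Fin n → Bool => if V ∩ Us y = {v} then 1 else 0) := by
    refine ex_mono h0 h1 fun y => ?_
    split_ifs with hc
    · refine Finset.prod_le_one (fun i _ => ?_) (fun i _ => ?_) <;> simp only [hg] <;>
        split_ifs <;> norm_num
    · apply le_of_eq
      by_contra hne
      apply hc
      have hall : ∀ i, g i (y i) ≠ 0 := fun i =>
        Finset.prod_ne_zero_iff.1 hne i (Finset.mem_univ i)
      ext w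
      simp only [Us, Finset.mem_inter, Finset.mem_filter, Finset.mem_univ, true_and,
        Finset.mem_singleton]
      have := hall w
      constructor
      · rintro ⟨hw, hy⟩
        by_contra hwv
        simp [hg, hwv, hw, hy] at this
      · rintro rfl
        refine ⟨hv, ?_⟩
        by_contra hy
        simp [hg, hy] at this
  refine le_trans ?_ hle
  rw [hp, ← Finset.mul_prod_erase _ _ (Finset.mem_univ v)]
  have e1 : θ * g v true + (1 - θ) * g v false = θ := by simp [hg]
  rw [e1]
  apply mul_le_mul_of_nonneg_left _ h0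
  have e2 : ∏ i ∈ Finset.univ.erase v, (θ * g i true + (1 - θ) * g i false)
      = ∏ i ∈ Finset.univ.erase v, if i ∈ V then (1 - θ) else 1 := by
    refine Finset.prod_congr rfl fun i hi => ?_
    have : i ≠ v := (Finset.mem_erase.1 hi).1
    by_cases hiV : i ∈ V <;> simp [hg, this, hiV]
  rw [e2, Finset.prod_ite_mem, Finset.prod_const]
  have hc : (Finset.univ.erase v ∩ V).card ≤ V.card := Finset.card_le_card Finset.inter_subset_right
  calc 1 - V.card * θ ≤ (1 - θ) ^ V.card := by
        have := one_add_mul_le_pow (a := -θ) (by linarith) V.card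
        simpa [sub_eq_add_neg] using this
    _ ≤ _ := pow_le_pow_of_le_one (by linarith) (by linarith) hc

lemma ex_sqrt_card_le {θ : ℝ} (h0 : 0 ≤ θ) (h1 : θ ≤ 1) :
    ex θ (fun y : Fin n → Bool => √((Us y).card : ℝ)) ≤ √(θ * n) := by
  apply Real.le_sqrt_of_sq_le
  have cs := ex_mul_sq_le h0 h1 (fun y : Fin n → Bool => √((Us y).card : ℝ)) (fun _ => 1)
  simp only [mul_one, one_pow, ex_const, Real.sq_sqrt (Nat.cast_nonneg _)] at cs
  refine cs.trans (le_of_eq ?_)
  have : ∀ y : Fin n → Bool, ((Us y).card : ℝ) = ∑ i, if y i = true then (1 : ℝ) else 0 := by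
    intro y
    rw [Us, Finset.card_filter]
    push_cast
    rfl
  simp only [this]
  rw [ex_sum]
  have e : ∀ i : Fin n, ex θ (fun y : Fin n → Bool => if y i = true then (1 : ℝ) else 0) = θ := by
    intro i
    rw [ex_coord θ i (fun b => if b = true then (1 : ℝ) else 0)]
    simp
  simp only [e]
  simp [mul_comm]

lemma low_weight (H : SymData vs r f) {p : ℝ} (h0 : 0 < p) (h1 : p < 1) (hn : 0 < n)
    (hr : 2 ≤ r) (t : ℕ) {θ : ℝ} (hθ0 : 0 ≤ θ) (hθ1 : θ ≤ 1) (hθ : (t : ℝ) ^ r * θ ≤ 1 / 2) :
    θ / 2 * ∑ S ∈ Finset.univ.filter (fun S : Finset ι => S ≠ ∅ ∧ r * S.card ≤ t ^ r),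
      coef p f S ^ 2
      ≤ sg p * Bc p ^ (t ^ (r - 1)) * (r * (∑ e, infl p f e) / n) * √(θ * n) := by
  have hs := sg_pos h0 h1
  set d := t ^ (r - 1) with hd
  have hB : 0 < Bc p ^ d := pow_pos (by linarith [Bc_ge h0 h1]) d
  have hI : 0 ≤ ∑ e, infl p f e := Finset.sum_nonneg fun e _ => infl_nonneg h0.le h1.le _ _
  set L := Finset.univ.filter (fun S : Finset ι => S ≠ ∅ ∧ r * S.card ≤ t ^ r) with hL
  have hex : ∀ S : Finset ι, ∃ v : Fin n, S ∈ L →
      v ∈ S.biUnion vs ∧ (S.filter (fun e => v ∈ vs e)).card ≤ d := by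
    intro S
    by_cases hS : S ∈ L
    · have := (Finset.mem_filter.1 hS).2
      obtain ⟨v, hv⟩ := low_vertex H hr t S this.1 this.2
      exact ⟨v, fun _ => hv⟩
    · exact ⟨⟨0, hn⟩, fun h => absurd h hS⟩
  choose v hv using hex
  have s1 : θ / 2 * ∑ S ∈ L, coef p f S ^ 2 ≤ ex θ (fun y : Fin n → Bool =>
      ∑ S ∈ L, (if S.biUnion vs ∩ Us y = {v S} then 1 else 0) * coef p f S ^ 2) := by
    rw [ex_sum, Finset.mul_sum]
    refine Finset.sum_le_sum fun S hS => ?_
    rw [ex_mul_const]
    apply mul_le_mul_of_nonneg_right _ (sq_nonneg _)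
    refine le_trans ?_ (prob_isolated hθ0 hθ1 _ (hv S hS).1)
    have hc : ((S.biUnion vs).card : ℝ) ≤ (t : ℝ) ^ r := by
      have a1 : (S.biUnion vs).card ≤ ∑ e ∈ S, (vs e).card := Finset.card_biUnion_le
      simp only [H.card, Finset.sum_const, smul_eq_mul] at a1
      have a2 := (Finset.mem_filter.1 hS).2.2
      have : (S.biUnion vs).card ≤ t ^ r := by nlinarith
      exact_mod_cast this
    have : ((S.biUnion vs).card : ℝ) * θ ≤ 1 / 2 :=
      (mul_le_mul_of_nonneg_right hc hθ0).trans hθ
    nlinarith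
  have s2 : ∀ y : Fin n → Bool,
      ∑ S ∈ L, (if S.biUnion vs ∩ Us y = {v S} then 1 else 0) * coef p f S ^ 2
      ≤ sg p * Bc p ^ d * (r * (∑ e, infl p f e) / n) * √((Us y).card : ℝ) := by
    intro y
    refine le_trans ?_ (per_set H h0 h1 hn d (Us y))
    set U := Us y with hU
    simp only [Finset.sum_filter]
    rw [Finset.sum_comm]
    refine le_trans ?_ (Finset.sum_le_sum_of_subset_of_nonneg (Finset.subset_univ L)
      fun S _ _ => Finset.sum_nonneg fun u _ => by split_ifs <;> positivity)
    refine Finset.sum_le_sum fun S hS => ?_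
    split_ifs with hc
    · have hvU : v S ∈ S.biUnion vs ∩ U := by rw [hc]; exact Finset.mem_singleton_self _
      have hsub : ∀ e ∈ S, vs e ∩ U ⊆ {v S} := by
        intro e he
        rw [← hc]
        exact Finset.inter_subset_inter_right (Finset.subset_biUnion_of_mem vs he)
      have hdiff : S \ Zs vs U = S.filter (fun e => v S ∈ vs e) := by
        ext e
        simp only [Finset.mem_sdiff, mem_Zs, Finset.mem_filter, and_congr_right_iff]
        intro he
        constructor
        · intro hd
          obtain ⟨w, hw1, hw2⟩ := Finset.not_disjoint_iff.1 hd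
          have := Finset.mem_singleton.1 (hsub e he (Finset.mem_inter.2 ⟨hw1, hw2⟩))
          rwa [this] at hw1
        · intro hve hd
          exact Finset.disjoint_left.1 hd hve (Finset.mem_inter.1 hvU).2
      have hT : S \ Zs vs U ∈ Ts vs U d (v S) := by
        rw [hdiff]
        refine Finset.mem_filter.2 ⟨Finset.mem_univ _, ?_, ?_, (hv S hS).2⟩
        · intro e he
          have he' := Finset.mem_filter.1 he
          rw [mem_As]
          refine Finset.Subset.antisymm (hsub e he'.1) ?_
          rw [Finset.singleton_subset_iff]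
          exact Finset.mem_inter.2 ⟨he'.2, (Finset.mem_inter.1 hvU).2⟩
        · obtain ⟨e, he, hve⟩ := Finset.mem_biUnion.1 (hv S hS).1
          exact Finset.ne_empty_of_mem (Finset.mem_filter.2 ⟨he, hve⟩)
      have := Finset.single_le_sum (f := fun u => if S \ Zs vs U ∈ Ts vs U d u then
        coef p f S ^ 2 else 0) (s := U) (fun i _ => by split_ifs <;> positivity)
        (Finset.mem_inter.1 hvU).2
      simpa [hT] using this
    · rw [zero_mul]
      exact Finset.sum_nonneg fun u _ => by split_ifs <;> positivity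
  refine s1.trans ((ex_mono hθ0 hθ1 s2).trans ?_)
  rw [ex_const_mul]
  exact mul_le_mul_of_nonneg_left (ex_sqrt_card_le hθ0 hθ1) (by positivity)

end Crest.Agent.R56
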