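import Crest.Agent.R56.Final

set_option autoImplicit false
set_option linter.unusedSectionVars false

namespace Crest.Agent.R56

open Finset Crest.Agent.Lib.BiasedCube Crest.FinProb

variable {ι : Type*} [Fintype ι] [DecidableEq ι]

open Classical in
lemma prob_eq_ex (p : ℝ) (E : Set (ι → Bool)) :
    bernoulliProb p E = ex p (fun x => if x ∈ E then 1 else 0) := by
  unfold bernoulliProb ex
  rw [Finset.sum_filter]
  refine Finset.sum_congr rfl fun x _ => ?_
  by_cases h : x ∈ E <;> simp [h]

lemma continuous_ex (f : (ι → Bool) → ℝ) : Continuous (fun t : ℝ => ex t f) := by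
  unfold ex bernoulliWeight
  refine continuous_finsetSum _ fun x _ => Continuous.mul ?_ continuous_const
  refine continuous_finsetProd _ fun i _ => ?_
  split_ifs <;> fun_prop

/-- The Margulis–Russo formula. -/
lemma hasDerivAt_ex (f : (ι → Bool) → ℝ) {t : ℝ} (h0 : 0 < t) (h1 : t < 1) :
    HasDerivAt (fun s : ℝ => ex s f) (∑ i, ex t (dv i f)) t := by
  have hw : ∀ x : ι → Bool, HasDerivAt (fun s : ℝ => bernoulliWeight s x)
      (∑ i, bernoulliWeight t x * (((if x i then 1 else 0) - t) / (t * (1 - t)))) t := by
    intro x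
    unfold bernoulliWeight
    have h := HasDerivAt.fun_finsetProd (u := Finset.univ) (x := t)
      (f := fun (i : ι) (s : ℝ) => if x i = true then s else 1 - s)
      (f' := fun i => if x i = true then (1 : ℝ) else -1) (fun i _ => by
        split_ifs
        · exact hasDerivAt_id t
        · simpa using (hasDerivAt_id t).const_sub 1)
    refine h.congr_deriv ?_
    symm
    refine Finset.sum_congr rfl fun i _ => ?_
    rw [← Finset.prod_erase_mul _ _ (Finset.mem_univ i), smul_eq_mul, mul_assoc]
    congr 1
    have : (1 - t) ≠ 0 := by linarith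
    split_ifs <;> field_simp <;> ring
  have h := HasDerivAt.fun_sum (u := Finset.univ) fun x _ => (hw x).mul_const (f x)
  refine h.congr_deriv ?_
  symm
  simp only [Finset.sum_mul]
  rw [Finset.sum_comm]
  refine Finset.sum_congr rfl fun i _ => ?_
  have e := ex_update t i (fun x => ((if x i then 1 else 0) - t) / (t * (1 - t)) * f x)
  have e2 : ex t (fun x => t * (((if Function.update x i true i then 1 else 0) - t) / (t * (1 - t))
        * f (Function.update x i true)) + (1 - t) * (((if Function.update x i false i then 1 else 0)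
        - t) / (t * (1 - t)) * f (Function.update x i false))) = ex t (dv i f) := by
    refine ex_congr t fun x => ?_
    have : (1 - t) ≠ 0 := by linarith
    simp only [Function.update_self, if_true, Bool.false_eq_true, if_false, dv]
    field_simp
    ring
  rw [e2] at e
  rw [← e]
  exact Finset.sum_congr rfl fun x _ => by ring

/-- From a lower bound on the total influence to the width of the threshold window. -/
lemma window {f : (ι → Bool) → ℝ} (hmono : ∀ i x, 0 ≤ dv i f x) {c : ℝ} (hc : 0 < c)
    (hvar : ∀ t : ℝ, 0 < t → t < 1 → c * (ex t f * (1 - ex t f)) ≤ ∑ i, infl t f i)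
    {ε p q : ℝ} (hε0 : 0 < ε) (hε : ε < 1 / 2) (hp0 : 0 ≤ p) (hq1 : q ≤ 1)
    (hp : ε ≤ ex p f) (hq : p + 4 / c * Real.log (1 / (2 * ε)) ≤ q) : 1 - ε ≤ ex q f := by
  by_contra hcon
  push Not at hcon
  have hlog : 0 < Real.log (1 / (2 * ε)) := by
    apply Real.log_pos
    rw [lt_div_iff₀ (by positivity)]; linarith
  have hpq : p ≤ q := by
    have : 0 < 4 / c * Real.log (1 / (2 * ε)) := by positivity
    linarith
  have hinfl : ∀ t, ∑ i, ex t (dv i f) = ∑ i, infl t f i := fun t =>
    Finset.sum_congr rfl fun i _ => ex_congr t fun x => (abs_of_nonneg (hmono i x)).symm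
  have hder : ∀ t ∈ interior (Set.Icc p q), HasDerivAt (fun s : ℝ => ex s f) (∑ i, infl t f i) t := by
    intro t ht
    rw [interior_Icc] at ht
    rw [← hinfl]
    exact hasDerivAt_ex f (by linarith [ht.1]) (by linarith [ht.2])
  have hm : MonotoneOn (fun s : ℝ => ex s f) (Set.Icc p q) := by
    apply monotoneOn_of_deriv_nonneg (convex_Icc p q) (continuous_ex f).continuousOn
    · exact fun t ht => (hder t ht).differentiableAt.differentiableWithinAt
    · intro t ht
      rw [(hder t ht).deriv]
      rw [interior_Icc] at ht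
      exact Finset.sum_nonneg fun i _ =>
        infl_nonneg (by linarith [ht.1]) (by linarith [ht.2]) _ _
  have hlo : ∀ t ∈ Set.Icc p q, 0 < ex t f := fun t ht =>
    lt_of_lt_of_le hε0 (hp.trans (hm ⟨le_rfl, hpq⟩ ht ht.1))
  have hhi : ∀ t ∈ Set.Icc p q, 0 < 1 - ex t f := fun t ht => by
    have := hm ht ⟨hpq, le_rfl⟩ ht.2
    simp only at this
    linarith
  set g : ℝ → ℝ := fun s => Real.log (ex s f) - Real.log (1 - ex s f) - c * s with hg
  have hgd : ∀ t ∈ interior (Set.Icc p q), HasDerivAt g
      ((∑ i, infl t f i) / ex t f - (-(∑ i, infl t f i)) / (1 - ex t f) - c * 1) t := by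
    intro t ht
    have ht' : t ∈ Set.Icc p q := interior_subset ht
    exact (((hder t ht).log (hlo t ht').ne').sub
      (((hder t ht).const_sub 1).log (hhi t ht').ne')).sub ((hasDerivAt_id t).const_mul c)
  have hgm : MonotoneOn g (Set.Icc p q) := by
    apply monotoneOn_of_deriv_nonneg (convex_Icc p q)
    · refine ContinuousOn.sub (ContinuousOn.sub ?_ ?_) (by fun_prop)
      · exact (continuous_ex f).continuousOn.log fun t ht => (hlo t ht).ne'
      · exact (continuous_const.sub (continuous_ex f)).continuousOn.log fun t ht => (hhi t ht).ne'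
    · exact fun t ht => (hgd t ht).differentiableAt.differentiableWithinAt
    · intro t ht
      rw [(hgd t ht).deriv]
      have ht' : t ∈ Set.Icc p q := interior_subset ht
      rw [interior_Icc] at ht
      have a := hvar t (by linarith [ht.1]) (by linarith [ht.2])
      have a1 := hlo t ht'
      have a2 := hhi t ht'
      have e : (∑ i, infl t f i) / ex t f - (-(∑ i, infl t f i)) / (1 - ex t f) - c * 1
          = ((∑ i, infl t f i) - c * (ex t f * (1 - ex t f))) / (ex t f * (1 - ex t f)) := by
        field_simp; ring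
      rw [e]
      exact div_nonneg (by linarith) (mul_pos a1 a2).le
  have key := hgm ⟨le_rfl, hpq⟩ ⟨hpq, le_rfl⟩ hpq
  simp only [hg] at key
  have b1 : Real.log ε ≤ Real.log (ex p f) := Real.log_le_log hε0 hp
  have b2 : Real.log (1 - ex p f) ≤ Real.log (1 - ε) :=
    Real.log_le_log (hhi p ⟨le_rfl, hpq⟩) (by linarith)
  have b3 : Real.log (ex q f) < Real.log (1 - ε) := Real.log_lt_log (hlo q ⟨hpq, le_rfl⟩) hcon
  have b4 : Real.log ε ≤ Real.log (1 - ex q f) := Real.log_le_log hε0 (by linarith)
  have b5 : Real.log (1 - ε) - Real.log ε ≤ 2 * Real.log (1 / (2 * ε)) := by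
    rw [← Real.log_div (by linarith) hε0.ne', show (2 : ℝ) * Real.log (1 / (2 * ε))
      = Real.log ((1 / (2 * ε)) ^ 2) by rw [Real.log_pow]; norm_num]
    apply Real.log_le_log (div_pos (by linarith) hε0)
    rw [div_pow, div_le_div_iff₀ hε0 (by positivity)]
    nlinarith [sq_nonneg (2 * ε - 1)]
  have b6 : 4 * Real.log (1 / (2 * ε)) ≤ c * q - c * p := by
    have : c * (4 / c * Real.log (1 / (2 * ε))) = 4 * Real.log (1 / (2 * ε)) := by field_simp
    nlinarith
  linarith

end Crest.Agent.R56
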